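import Vale.Agent.P088.H738.E2.Defs
import Vale.Agent.P088.H738.DTop
import Vale.Agent.P088.H323.CSu

/-!
# P088, Theorem E by compactness: the theorem of Arzela and Ascoli with all derivatives
-/

open MeasureTheory Set Filter Topology
open scoped ContDiff Matrix

noncomputable section

namespace Vale.Agent.P088.H442.AA

open Vale.Agent.P088.LR Vale.Agent.P088.LR.CF Vale.Agent.P088.LR.CD.H738
open Vale.Agent.P088.LR.E (Cb)

variable {n : ℕ}

theorem interpR (n m : ℕ) : ∃ M : ℕ, ∀ B : ℝ, 1 ≤ B → ∀ η : ℝ, 0 < η →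
    ∃ ε > 0, ∀ f : V n → ℝ, ContDiff ℝ ∞ f → (∀ x ∉ core n, f x = 0) → (∀ x, |f x| ≤ ε) →
    Cl M B f → Cl m η f := by
  obtain ⟨M, H⟩ := interp H323.rowIN n m
  refine ⟨M, fun B hB η hη => ?_⟩
  obtain ⟨ε, hε, H1⟩ := H B hB η hη
  refine ⟨ε, hε, fun f hf h0 hs hM => ?_⟩
  have h1 : ContDiff ℝ ∞ (cx f) := Complex.ofRealCLM.contDiff.comp hf
  refine (cl_cx hf).1 (H1 (cx f) h1 (fun x hx => ?_) (fun x => ?_) ((cl_cx hf).2 hM))
  · show ((f x : ℝ) : ℂ) = 0
    rw [h0 x hx]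
    simp
  · show ‖((f x : ℝ) : ℂ)‖ ≤ ε
    rw [Complex.norm_real]
    exact hs x

theorem core_icc : core n = Set.Icc (fun _ => (1 / 4 : ℝ)) (fun _ => (3 / 4 : ℝ)) := by
  ext x
  simp only [core, Set.mem_ofPred_eq, Set.mem_Icc, Pi.le_def]
  exact ⟨fun h => ⟨fun j => (h j).1, fun j => (h j).2⟩, fun h j => ⟨h.1 j, h.2 j⟩⟩

/-- Uniformly convergent subsequence. -/
theorem czero {B₀ L : ℝ} (f : ℕ → V n → ℝ) (hf : ∀ m, Continuous (f m))
    (h0 : ∀ m, ∀ x ∉ core n, f m x = 0) (hB : ∀ m x, |f m x| ≤ B₀)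
    (hL : ∀ m x y, |f m x - f m y| ≤ L * dist x y) :
    ∃ φ : ℕ → ℕ, StrictMono φ ∧ ∀ δ > 0, ∃ N, ∀ m ≥ N, ∀ l ≥ N, ∀ x,
      |f (φ m) x - f (φ l) x| ≤ δ := by
  have hc : IsCompact (core n) := by
    rw [core_icc]
    exact isCompact_Icc
  have : CompactSpace (core n) := isCompact_iff_compactSpace.1 hc
  let F : ℕ → BoundedContinuousFunction (core n) ℝ := fun m =>
    BoundedContinuousFunction.mkOfCompact ⟨fun x => f m x, (hf m).comp continuous_subtype_val⟩
  have hA : IsCompact (closure (Set.range F)) := by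
    refine BoundedContinuousFunction.arzela_ascoli (Set.Icc (-B₀) B₀) isCompact_Icc _ ?_ ?_
    · rintro g x ⟨m, rfl⟩
      exact abs_le.1 (hB m x)
    · refine Metric.equicontinuous_of_continuity_modulus (fun t => L * t) ?_ _ ?_
      · have : Tendsto (fun t : ℝ => L * t) (𝓝 0) (𝓝 (L * 0)) :=
          (continuous_const.mul continuous_id).tendsto 0
        rwa [mul_zero] at this
      · rintro x y ⟨g, m, rfl⟩
        exact hL m x y
  obtain ⟨a, -, φ, hφ, ha⟩ := hA.tendsto_subseq (x := F) (fun m => subset_closure ⟨m, rfl⟩)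
  refine ⟨φ, hφ, fun δ hδ => ?_⟩
  obtain ⟨N, hN⟩ := Metric.cauchySeq_iff.1 ha.cauchySeq δ hδ
  refine ⟨N, fun m hm l hl x => ?_⟩
  by_cases hx : x ∈ core n
  · have h1 : dist (F (φ m) ⟨x, hx⟩) (F (φ l) ⟨x, hx⟩) ≤ dist (F (φ m)) (F (φ l)) :=
      BoundedContinuousFunction.dist_coe_le_dist _
    exact h1.trans (hN m hm l hl).le
  · rw [h0 _ x hx, h0 _ x hx]
    simpa using hδ.le

theorem lip {f : V n → ℝ} (hf : ContDiff ℝ ∞ f) {L : ℝ}
    (h : ∀ x, ‖iteratedFDeriv ℝ 1 f x‖ ≤ L) (x y : V n) : |f x - f y| ≤ L * dist x y := by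
  have h1 : ∀ z ∈ (Set.univ : Set (V n)), ‖fderiv ℝ f z‖ ≤ L := fun z _ => by
    rw [← norm_iteratedFDeriv_one]
    exact h z
  have h2 := (convex_univ (𝕜 := ℝ) (E := V n)).norm_image_sub_le_of_norm_fderiv_le
    (f := f) (fun z _ => (hf.differentiable (by simp)).differentiableAt) h1
    (Set.mem_univ y) (Set.mem_univ x)
  rw [dist_eq_norm]
  exact h2

/-- **(AA)** -/
theorem aa (B : ℕ → ℝ) (f : ℕ → V n → ℝ) (hf : ∀ m, ContDiff ℝ ∞ (f m))
    (h0 : ∀ m, ∀ x ∉ core n, f m x = 0) (hB : ∀ m, Cb m B (f m)) :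
    ∃ (φ : ℕ → ℕ) (g : V n → ℝ), StrictMono φ ∧ ContDiff ℝ ∞ g ∧ (∀ x ∉ core n, g x = 0) ∧
      ∀ (k : ℕ) (δ : ℝ), 0 < δ → ∀ᶠ m in atTop, Cl k δ (fun x => f (φ m) x - g x) := by
  -- step 1
  obtain ⟨φ₀, hφ₀, hC⟩ := czero (B₀ := B 0) (L := B 1) (fun m => f (m + 1))
    (fun m => (hf _).continuous) (fun m => h0 _)
    (fun m x => by
      have := hB (m + 1) 0 (by omega) x
      rwa [norm_iteratedFDeriv_zero, Real.norm_eq_abs] at this)
    (fun m x y => lip (hf _) (fun z => hB (m + 1) 1 (by omega) z) x y)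
  set h : ℕ → V n → ℝ := fun m => f (φ₀ m + 1) with hh
  have hhs : ∀ m, ContDiff ℝ ∞ (h m) := fun m => hf _
  have hφ₀' : ∀ m, m ≤ φ₀ m := fun m => hφ₀.le_apply
  -- step 2
  have s2 : ∀ (k : ℕ) (η : ℝ), 0 < η → ∃ N, ∀ m ≥ N, ∀ l ≥ N,
      Cl k η (fun x => h m x - h l x) := by
    intro k η hη
    obtain ⟨M, H⟩ := interpR n k
    obtain ⟨ε, hε, H1⟩ := H (1 + 2 * ∑ i ∈ Finset.range (M + 1), |B i|) (by
      have : 0 ≤ ∑ i ∈ Finset.range (M + 1), |B i| := Finset.sum_nonneg fun i _ => abs_nonneg _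
      linarith) η hη
    obtain ⟨N, hN⟩ := hC ε hε
    refine ⟨max N M, fun m hm l hl => H1 _ ((hhs m).sub (hhs l)) ?_ ?_ ?_⟩
    · intro x hx
      rw [hh]
      simp only
      rw [h0 _ x hx, h0 _ x hx, sub_zero]
    · exact fun x => hN m ((le_max_left _ _).trans hm) l ((le_max_left _ _).trans hl) x
    · intro j hj x
      have e1 : ∀ i, j ≤ φ₀ i + 1 → ‖iteratedFDeriv ℝ j (h i) x‖ ≤
          ∑ i ∈ Finset.range (M + 1), |B i| := fun i hi =>
        ((hB _ j hi x).trans (le_abs_self _)).trans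
          (Finset.single_le_sum (f := fun i => |B i|) (fun i _ => abs_nonneg _)
            (Finset.mem_range.2 (by omega)))
      have hm' : j ≤ φ₀ m + 1 := by
        have := (le_max_right N M).trans hm
        have := hφ₀' m
        omega
      have hl' : j ≤ φ₀ l + 1 := by
        have := (le_max_right N M).trans hl
        have := hφ₀' l
        omega
      have e2 : iteratedFDeriv ℝ j (fun x => h m x - h l x) x =
          iteratedFDeriv ℝ j (h m) x - iteratedFDeriv ℝ j (h l) x := by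
        have e3 : (fun x => h m x - h l x) = h m - h l := rfl
        rw [e3, iteratedFDeriv_sub ((hhs m).of_le (by exact_mod_cast le_top))
          ((hhs l).of_le (by exact_mod_cast le_top))]
        rfl
      rw [e2]
      refine (norm_sub_le _ _).trans ?_
      linarith [e1 m hm', e1 l hl']
  -- step 3
  obtain ⟨ψ, hψ, hP⟩ := extraction_forall_of_eventually'
    (P := fun j k => ∀ m ≥ k, ∀ l ≥ k, Cl j ((1 / 2 : ℝ) ^ j) (fun x => h m x - h l x))
    (fun j => by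
      obtain ⟨N, hN⟩ := s2 j ((1 / 2 : ℝ) ^ j) (by positivity)
      exact ⟨N, fun k hk m hm l hl => hN m (hk.trans hm) l (hk.trans hl)⟩)
  set d : ℕ → V n → ℝ := fun j x => h (ψ (j + 1)) x - h (ψ j) x with hd
  have hds : ∀ j, ContDiff ℝ ∞ (d j) := fun j => (hhs _).sub (hhs _)
  have hdb : ∀ j k, k ≤ j → ∀ x, ‖iteratedFDeriv ℝ k (d j) x‖ ≤ (1 / 2 : ℝ) ^ j :=
    fun j k hk x => hP j (ψ (j + 1)) (hψ.monotone (by omega)) (ψ j) le_rfl k hk x
  have hsum : Summable (fun i : ℕ => (1 / 2 : ℝ) ^ i) := summable_geometric_two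
  have hS : ContDiff ℝ ∞ (fun x => ∑' i, d i x) := by
    refine contDiff_tsum_of_eventually (v := fun _ i => (1 / 2 : ℝ) ^ i) hds
      (fun k _ => hsum) (fun k _ => ?_)
    rw [Nat.cofinite_eq_atTop]
    filter_upwards [eventually_ge_atTop k] with i hi
    exact fun x => hdb i k hi x
  have hsx : ∀ x, Summable (fun i => d i x) := fun x => by
    refine Summable.of_norm_bounded hsum fun i => ?_
    have := hdb i 0 (Nat.zero_le _) x
    rwa [norm_iteratedFDeriv_zero] at this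
  have tel : ∀ m x, ∑ i ∈ Finset.range m, d i x = h (ψ m) x - h (ψ 0) x := fun m x => by
    induction m with
    | zero => simp
    | succ m ih =>
      rw [Finset.sum_range_succ, ih, hd]
      ring
  have hg : ∀ m x, h (ψ m) x - (h (ψ 0) x + ∑' i, d i x) = -∑' i, d (i + m) x := fun m x => by
    have e := (hsx x).sum_add_tsum_nat_add m
    rw [tel] at e
    linarith
  refine ⟨fun m => φ₀ (ψ m) + 1, fun x => h (ψ 0) x + ∑' i, d i x, ?_, (hhs _).add hS, ?_, ?_⟩
  · intro a b hab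
    have := hφ₀ (hψ hab)
    show φ₀ (ψ a) + 1 < φ₀ (ψ b) + 1
    omega
  · intro x hx
    have e1 : ∀ i, d i x = 0 := fun i => by
      rw [hd, hh]
      simp only
      rw [h0 _ x hx, h0 _ x hx, sub_zero]
    simp only [e1, tsum_zero, add_zero]
    rw [hh]
    exact h0 _ x hx
  · intro k δ hδ
    have hlim : Tendsto (fun m : ℕ => (1 / 2 : ℝ) ^ m * 2) atTop (𝓝 (0 * 2)) :=
      (tendsto_pow_atTop_nhds_zero_of_lt_one (by norm_num) (by norm_num)).mul_const 2
    rw [zero_mul] at hlim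
    filter_upwards [eventually_ge_atTop k, hlim.eventually (gt_mem_nhds hδ)] with m hm hmδ
    intro l hl x
    have e1 : (fun x => f (φ₀ (ψ m) + 1) x - (h (ψ 0) x + ∑' i, d i x)) =
        fun x => -(∑' i, d (i + m) x) := by
      funext x
      exact hg m x
    have hsum' : Summable (fun i : ℕ => (1 / 2 : ℝ) ^ (i + m)) :=
      (summable_nat_add_iff m).2 hsum
    have hb' : ∀ (j : ℕ) (i : ℕ) (x : V n), (j : ℕ∞) ≤ (k : ℕ∞) →
        ‖iteratedFDeriv ℝ j (d (i + m)) x‖ ≤ (1 / 2 : ℝ) ^ (i + m) := fun j i x hj =>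
      hdb (i + m) j (by
        have : j ≤ k := by exact_mod_cast hj
        omega) x
    have e2 := iteratedFDeriv_tsum_apply (𝕜 := ℝ) (N := (k : ℕ∞))
      (f := fun i => d (i + m)) (v := fun _ i => (1 / 2 : ℝ) ^ (i + m))
      (fun i => (hds _).of_le (by exact_mod_cast le_top)) (fun j _ => hsum') hb'
      (k := l) (by exact_mod_cast hl) x
    rw [e1]
    have e3 : (fun x => -(∑' i, d (i + m) x)) = -(fun x => ∑' i, d (i + m) x) := rfl
    rw [e3, iteratedFDeriv_neg_apply, norm_neg, e2]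
    have e4 : HasSum (fun i : ℕ => (1 / 2 : ℝ) ^ (i + m)) ((1 / 2 : ℝ) ^ m * 2) := by
      have e5 := hasSum_geometric_two.mul_left ((1 / 2 : ℝ) ^ m)
      have e6 : (fun i : ℕ => (1 / 2 : ℝ) ^ (i + m)) =
          fun i : ℕ => (1 / 2 : ℝ) ^ m * (1 / 2 : ℝ) ^ i := by
        funext i
        rw [← pow_add, add_comm]
      rw [e6]
      exact e5
    refine (tsum_of_norm_bounded e4 fun i => hb' l i x (by exact_mod_cast hl)).trans hmδ.le

/-- **(AA)**, the row of `H738/E2/Defs`. -/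
theorem rowAA : Vale.Agent.P088.LR.E2.RowAA := by
  intro n _ B f hf h0 hB
  obtain ⟨φ, g, h1, h2, h3, h4⟩ := aa B f hf h0 hB
  exact ⟨φ, g, h1, h2, h3, fun k ε hε => eventually_atTop.1 (h4 k ε hε)⟩

end Vale.Agent.P088.H442.AA

end
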